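import Vale.Agent.P183S.DE

namespace Vale.Agent.P183S

lemma c2E0 : ∀ u < dE.m + 1, ∀ s < dE.m + 1,
    dE.lab 0 (dE.T u s) = dE.lab 0 (dE.T u (dE.lab 0 s)) ∧
      dE.lab 0 (dE.S u s) = dE.lab 0 (dE.S u (dE.lab 0 s)) := by decide +kernel

lemma c2E1 : ∀ u < dE.m + 1, ∀ s < dE.m + 1,
    dE.lab 1 (dE.T u s) = dE.lab 1 (dE.T u (dE.lab 1 s)) ∧
      dE.lab 1 (dE.S u s) = dE.lab 1 (dE.S u (dE.lab 1 s)) := by decide +kernel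

lemma c2E2 : ∀ u < dE.m + 1, ∀ s < dE.m + 1,
    dE.lab 2 (dE.T u s) = dE.lab 2 (dE.T u (dE.lab 2 s)) ∧
      dE.lab 2 (dE.S u s) = dE.lab 2 (dE.S u (dE.lab 2 s)) := by decide +kernel

lemma c2E3 : ∀ u < dE.m + 1, ∀ s < dE.m + 1,
    dE.lab 3 (dE.T u s) = dE.lab 3 (dE.T u (dE.lab 3 s)) ∧
      dE.lab 3 (dE.S u s) = dE.lab 3 (dE.S u (dE.lab 3 s)) := by decide +kernel

end Vale.Agent.P183S
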