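import Vale.Agent.P183S.DE

namespace Vale.Agent.P183S

lemma c2E4 : ∀ u < dE.m + 1, ∀ s < dE.m + 1,
    dE.lab 4 (dE.T u s) = dE.lab 4 (dE.T u (dE.lab 4 s)) ∧
      dE.lab 4 (dE.S u s) = dE.lab 4 (dE.S u (dE.lab 4 s)) := by decide +kernel

lemma c2E5 : ∀ u < dE.m + 1, ∀ s < dE.m + 1,
    dE.lab 5 (dE.T u s) = dE.lab 5 (dE.T u (dE.lab 5 s)) ∧
      dE.lab 5 (dE.S u s) = dE.lab 5 (dE.S u (dE.lab 5 s)) := by decide +kernel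

lemma c2E6 : ∀ u < dE.m + 1, ∀ s < dE.m + 1,
    dE.lab 6 (dE.T u s) = dE.lab 6 (dE.T u (dE.lab 6 s)) ∧
      dE.lab 6 (dE.S u s) = dE.lab 6 (dE.S u (dE.lab 6 s)) := by decide +kernel

lemma c1E : ∀ u < dE.m + 1, dE.T u 0 = u ∧ dE.S u u = 0 ∧
    ∀ t < dE.m + 1, dE.T u (dE.S u t) = t := by decide +kernel

lemma c6E : ∀ t < dE.m + 1, dE.kap t < dE.n ∧ dE.lab (dE.kap t) t = 0 ∧
    dE.cover (dE.gens t) (dE.kap t) = true := by decide +kernel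

end Vale.Agent.P183S
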