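import Vale.Agent.P183S.DE1
import Vale.Agent.P183S.DE2

namespace Vale.Agent.P183S

lemma okE : dE.OK :=
  ⟨by decide +kernel, c1E, fun k hk => by
      have hk' : k < 7 := hk
      interval_cases k
      exacts [c2E0, c2E1, c2E2, c2E3, c2E4, c2E5, c2E6],
    by decide +kernel, by decide +kernel, by decide +kernel, c6E, by decide +kernel⟩

end Vale.Agent.P183S
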