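import Vale.Agent.P183S.DG

namespace Vale.Agent.P183S

lemma c2G0 : ∀ u < dG.m + 1, ∀ s < dG.m + 1,
    dG.lab 0 (dG.T u s) = dG.lab 0 (dG.T u (dG.lab 0 s)) ∧
      dG.lab 0 (dG.S u s) = dG.lab 0 (dG.S u (dG.lab 0 s)) := by decide +kernel

lemma c2G1 : ∀ u < dG.m + 1, ∀ s < dG.m + 1,
    dG.lab 1 (dG.T u s) = dG.lab 1 (dG.T u (dG.lab 1 s)) ∧
      dG.lab 1 (dG.S u s) = dG.lab 1 (dG.S u (dG.lab 1 s)) := by decide +kernel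

lemma c2G2 : ∀ u < dG.m + 1, ∀ s < dG.m + 1,
    dG.lab 2 (dG.T u s) = dG.lab 2 (dG.T u (dG.lab 2 s)) ∧
      dG.lab 2 (dG.S u s) = dG.lab 2 (dG.S u (dG.lab 2 s)) := by decide +kernel

lemma c2G3 : ∀ u < dG.m + 1, ∀ s < dG.m + 1,
    dG.lab 3 (dG.T u s) = dG.lab 3 (dG.T u (dG.lab 3 s)) ∧
      dG.lab 3 (dG.S u s) = dG.lab 3 (dG.S u (dG.lab 3 s)) := by decide +kernel

end Vale.Agent.P183S
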