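import Vale.Agent.P183S.DG

namespace Vale.Agent.P183S

lemma c2G4 : ∀ u < dG.m + 1, ∀ s < dG.m + 1,
    dG.lab 4 (dG.T u s) = dG.lab 4 (dG.T u (dG.lab 4 s)) ∧
      dG.lab 4 (dG.S u s) = dG.lab 4 (dG.S u (dG.lab 4 s)) := by decide +kernel

lemma c2G5 : ∀ u < dG.m + 1, ∀ s < dG.m + 1,
    dG.lab 5 (dG.T u s) = dG.lab 5 (dG.T u (dG.lab 5 s)) ∧
      dG.lab 5 (dG.S u s) = dG.lab 5 (dG.S u (dG.lab 5 s)) := by decide +kernel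

lemma c2G6 : ∀ u < dG.m + 1, ∀ s < dG.m + 1,
    dG.lab 6 (dG.T u s) = dG.lab 6 (dG.T u (dG.lab 6 s)) ∧
      dG.lab 6 (dG.S u s) = dG.lab 6 (dG.S u (dG.lab 6 s)) := by decide +kernel

lemma c1G : ∀ u < dG.m + 1, dG.T u 0 = u ∧ dG.S u u = 0 ∧
    ∀ t < dG.m + 1, dG.T u (dG.S u t) = t := by decide +kernel

lemma c6G : ∀ t < dG.m + 1, dG.kap t < dG.n ∧ dG.lab (dG.kap t) t = 0 ∧
    dG.cover (dG.gens t) (dG.kap t) = true := by decide +kernel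

end Vale.Agent.P183S
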