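import Vale.Agent.P183S.DG1
import Vale.Agent.P183S.DG2

namespace Vale.Agent.P183S

lemma okG : dG.OK :=
  ⟨by decide +kernel, c1G, fun k hk => by
      have hk' : k < 7 := hk
      interval_cases k
      exacts [c2G0, c2G1, c2G2, c2G3, c2G4, c2G5, c2G6],
    by decide +kernel, by decide +kernel, by decide +kernel, c6G, by decide +kernel⟩

end Vale.Agent.P183S
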