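import Vale.Agent.P183S.Enum

namespace Vale.Agent.P183S

open Vale.Agent.P183L

lemma en2 : all2 5 4 (fun a c => chkC 7 (64 * a + c)) = true := by decide +kernel

end Vale.Agent.P183S
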