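import Vale.Agent.P183.Basic
import Vale.Agent.P183L.Tab

namespace Vale.Agent.P183S

open Vale.Agent.P183 Vale.Agent.P183L

structure GD where
  m : ℕ
  n : ℕ
  tT : ℕ
  tS : ℕ
  tL : ℕ
  tK : ℕ
  tJ : ℕ
  tO : ℕ
  hs : List ℕ
  gk : List (List ℕ)
  a1 : ℕ
  b1 : ℕ
  a2 : ℕ
  b2 : ℕ
  fuel : ℕ

namespace GD
variable (D : GD)

def T (u x : ℕ) : ℕ := (D.tT >>> (7 * (128 * u + x))) % 128 % (D.m + 1)
def S (u x : ℕ) : ℕ := (D.tS >>> (7 * (128 * u + x))) % 128 % (D.m + 1)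
def lab (k x : ℕ) : ℕ := (D.tL >>> (7 * (128 * k + x))) % 128 % (D.m + 1)
def kap (x : ℕ) : ℕ := (D.tK >>> (3 * x)) % 8
def jo (a b : ℕ) : ℕ := (D.tJ >>> (3 * (8 * a + b))) % 8
def le (a b : ℕ) : Bool := D.tO.testBit (8 * a + b)
def g (k : ℕ) : List ℕ := D.gk.getD k []

def sweep (gs : List ℕ) (M : ℕ) : ℕ :=
  (List.range (D.m + 1)).foldl (fun M x => frc M fun M =>
    cond (M.testBit x) (gs.foldl (fun M u => M ||| 2 ^ D.T u x) M) M) M

def clos (gs : List ℕ) : ℕ → ℕ → ℕ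
  | 0, M => M
  | f + 1, M => frc (D.sweep gs M) fun M => clos gs f M

def cover (gs : List ℕ) (k : ℕ) : Bool :=
  frc (D.clos gs D.fuel 1) fun M =>
    (List.range (D.m + 1)).all fun y => !(Nat.beq (D.lab k y) 0) || M.testBit y

def gens (t : ℕ) : List ℕ :=
  t :: D.hs ++ (cond (Nat.beq (D.lab D.a1 t) 0) [] (D.g D.b1) ++
    cond (Nat.beq (D.lab D.a2 t) 0) [] (D.g D.b2))

structure OK : Prop where
  pos : 0 < D.n
  c1 : ∀ u < D.m + 1, D.T u 0 = u ∧ D.S u u = 0 ∧ ∀ t < D.m + 1, D.T u (D.S u t) = t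
  c2 : ∀ k < D.n, ∀ u < D.m + 1, ∀ s < D.m + 1,
    D.lab k (D.T u s) = D.lab k (D.T u (D.lab k s)) ∧ D.lab k (D.S u s) = D.lab k (D.S u (D.lab k s))
  c3 : ∀ u ∈ D.hs, D.T u 0 = 0 ∧ ∀ k < D.n, ∀ s < D.m + 1,
    D.lab k (D.T u s) = D.lab k (D.T u (D.lab k s))
  c4 : ∀ k < D.n, D.lab k 0 = 0 ∧ D.le 0 k = true ∧ (∀ s < D.m + 1, D.lab k (D.lab k s) = D.lab k s) ∧
    (∀ u ∈ D.g k, u < D.m + 1 ∧ D.lab k u = 0) ∧
    (D.le k D.a1 = true ∨ D.le D.b1 k = true) ∧ (D.le k D.a2 = true ∨ D.le D.b2 k = true)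
  c5 : ∀ a < D.n, ∀ b < D.n, (D.le a b = true ↔ ∀ s < D.m + 1, D.lab b s = D.lab b (D.lab a s)) ∧
    (D.le a b = true → D.le b a = true → a = b) ∧ D.jo a b < D.n ∧ D.le a (D.jo a b) = true ∧
    D.le b (D.jo a b) = true ∧ D.cover (D.g a ++ D.g b ++ D.hs) (D.jo a b) = true
  c6 : ∀ t < D.m + 1, D.kap t < D.n ∧ D.lab (D.kap t) t = 0 ∧ D.cover (D.gens t) (D.kap t) = true
  c7 : D.a1 < D.n ∧ D.b1 < D.n ∧ D.a2 < D.n ∧ D.b2 < D.n

lemma foldl_inv {α : Type} {P : ℕ → Prop} (f : ℕ → α → ℕ) (l : List α)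
    (h : ∀ M, ∀ x ∈ l, P M → P (f M x)) : ∀ M, P M → P (l.foldl f M) := by
  induction l with
  | nil => exact fun _ h => h
  | cons x l ih =>
    exact fun M hM => ih (fun M y hy => h M y (List.mem_cons_of_mem _ hy)) _
      (h M x List.mem_cons_self hM)

lemma cover_spec {B : ℕ → Prop} (h0 : B 0) {gs : List ℕ} (hg : ∀ u ∈ gs, ∀ x, B x → B (D.T u x))
    {k : ℕ} (h : D.cover gs k = true) : ∀ y < D.m + 1, D.lab k y = 0 → B y := by
  have h1 : ∀ M, (∀ y, M.testBit y = true → B y) → ∀ y, (D.sweep gs M).testBit y = true → B y := by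
    refine foldl_inv (P := fun M => ∀ y, M.testBit y = true → B y) _ _ fun M x _ hM => ?_
    rw [frc_eq]
    cases hx : M.testBit x
    · exact hM
    · refine foldl_inv (P := fun M => ∀ y, M.testBit y = true → B y) _ _
        (fun M' u hu hM' y hy => ?_) M hM
      rw [Nat.testBit_or, Bool.or_eq_true, Nat.testBit_two_pow] at hy
      rcases hy with hy | hy
      · exact hM' y hy
      · rw [← of_decide_eq_true hy]; exact hg u hu x (hM x hx)
  have h2 : ∀ f M, (∀ y, M.testBit y = true → B y) →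
      ∀ y, (D.clos gs f M).testBit y = true → B y := by
    intro f
    induction f with
    | zero => exact fun _ h => h
    | succ f ih => exact fun M hM => by rw [clos, frc_eq]; exact ih _ (h1 M hM)
  intro y hy hl
  simp only [cover, frc_eq, List.all_eq_true, List.mem_range] at h
  have h3 := h y hy
  rw [hl] at h3
  refine h2 _ 1 (fun z hz => ?_) y (by simpa using h3)
  rw [Nat.testBit_one_eq_true_iff_self_eq_zero.1 hz]; exact h0

theorem rep (h : D.OK) : Rep (Fin D.n) fun a b => D.le a b = true := by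
  classical
  let ρ : Fin D.n → Setoid (Fin (D.m + 1)) := fun k => Setoid.ker fun s => D.lab k s
  have hρ : ∀ k s t, ρ k s t ↔ D.lab k s = D.lab k t := fun _ _ _ => Iff.rfl
  have lt : ∀ z, z % (D.m + 1) < D.m + 1 := fun z => Nat.mod_lt _ (Nat.succ_pos _)
  let T' : ℕ → Fin (D.m + 1) → Fin (D.m + 1) := fun u s => ⟨D.T u s, lt _⟩
  let S' : ℕ → Fin (D.m + 1) → Fin (D.m + 1) := fun u s => ⟨D.S u s, lt _⟩
  have pr : ∀ (f : ℕ → ℕ) (k : ℕ), (∀ s < D.m + 1, D.lab k (f s) = D.lab k (f (D.lab k s))) →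
      ∀ s t : Fin (D.m + 1), D.lab k s = D.lab k t → D.lab k (f s) = D.lab k (f t) :=
    fun f k hf s t hst => by rw [hf s s.2, hf t t.2, hst]
  have pT : ∀ u < D.m + 1, ∀ k, Pres (ρ k) (T' u) := fun u hu k =>
    pr (D.T u) k fun s hs => (h.c2 k k.2 u hu s hs).1
  have pS : ∀ u < D.m + 1, ∀ k, Pres (ρ k) (S' u) := fun u hu k =>
    pr (D.S u) k fun s hs => (h.c2 k k.2 u hu s hs).2
  have pH : ∀ u ∈ D.hs, ∀ k, Pres (ρ k) (T' u) := fun u hu k =>
    pr (D.T u) k ((h.c3 u hu).2 k k.2)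
  have ord : ∀ a b : Fin D.n, D.le a b = true ↔ ∀ s t, ρ a s t → ρ b s t := fun a b => by
    rw [(h.c5 a a.2 b b.2).1]
    refine ⟨fun hh s t hst => ?_, fun hh s hs =>
      hh ⟨s, hs⟩ ⟨D.lab a s, lt _⟩ (((h.c4 a a.2).2.2.1 s hs).symm)⟩
    rw [hρ] at hst ⊢
    rw [hh s s.2, hh t t.2, hst]
  have red : ∀ η : Setoid (Fin (D.m + 1)), (∀ u < D.m + 1, Pres η (T' u)) →
      (∀ u < D.m + 1, Pres η (S' u)) → ∀ s t, η s t ↔ η 0 (S' s t) := fun η h1 h2 s t => by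
    constructor
    · intro hst
      have := h2 s s.2 s t hst
      rwa [show S' s s = 0 from Fin.ext (h.c1 s s.2).2.1] at this
    · intro hst
      have := h1 s s.2 _ _ hst
      rwa [show T' s 0 = s from Fin.ext (h.c1 s s.2).1,
        show T' s (S' s t) = t from Fin.ext ((h.c1 s s.2).2.2 t t.2)] at this
  refine Cl.rep (ρ := ρ) (a0 := ⟨0, h.pos⟩) ⟨ord, fun a b h1 h2 =>
    Fin.ext ((h.c5 a a.2 b b.2).2.1 h1 h2), fun a => (h.c4 a a.2).2.1, fun θ _ hθ => ?_⟩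
  let B : ℕ → Prop := fun y => ∃ hy : y < D.m + 1, θ 0 ⟨y, hy⟩
  have B0 : B 0 := ⟨Nat.succ_pos _, θ.refl _⟩
  have bT : ∀ u, B u → ∀ x, B x → B (D.T u x) := by
    rintro u ⟨hu, h1⟩ x ⟨hx, h2⟩
    have := hθ _ (pT u hu) _ _ h2
    rw [show T' u 0 = ⟨u, hu⟩ from Fin.ext (h.c1 u hu).1] at this
    exact ⟨lt _, θ.trans h1 this⟩
  have bH : ∀ u ∈ D.hs, ∀ x, B x → B (D.T u x) := by
    rintro u hu x ⟨hx, h2⟩
    have := hθ _ (pH u hu) _ _ h2
    rw [show T' u 0 = 0 from Fin.ext (h.c3 u hu).1] at this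
    exact ⟨lt _, this⟩
  have fi : ∀ a b : Fin D.n, (∀ k < D.n, D.le k a = true ∨ D.le b k = true) → ∀ t, B t →
      D.lab a t ≠ 0 → ∀ u ∈ D.g b, B u := by
    rintro a b hab t ⟨ht, h1⟩ hne u hu
    obtain ⟨hu1, hu2⟩ := (h.c4 b b.2).2.2.2.1 u hu
    have hb : ρ b 0 ⟨u, hu1⟩ := ((h.c4 b b.2).1.trans hu2.symm : D.lab b 0 = D.lab b u)
    have := hθ (fun w => if ρ a 0 w then 0 else ⟨u, hu1⟩) (fun k w w' hw => by
      rcases hab k k.2 with h2 | h2
      · have h3 := (ord k a).1 h2 _ _ hw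
        by_cases c : ρ a 0 w
        · simp only [if_pos c, if_pos ((ρ a).trans c h3)]; exact (ρ k).refl _
        · simp only [if_neg c, if_neg fun c' => c ((ρ a).trans c' ((ρ a).symm h3))]
          exact (ρ k).refl _
      · have h3 := (ord b k).1 h2 _ _ hb
        show ρ k (if ρ a 0 w then 0 else ⟨u, hu1⟩) (if ρ a 0 w' then 0 else ⟨u, hu1⟩)
        split_ifs
        exacts [(ρ k).refl _, h3, (ρ k).symm h3, (ρ k).refl _]) _ _ h1
    have c : ¬ ρ a 0 ⟨t, ht⟩ := fun c => hne (((hρ _ _ _).1 c).symm.trans (h.c4 a a.2).1)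
    simp only [if_pos ((ρ a).refl 0), if_neg c] at this
    exact ⟨hu1, this⟩
  let C : ℕ → Prop := fun k => ∀ y < D.m + 1, D.lab k y = 0 → B y
  have up : ∀ t, B t → C (D.kap t) := fun t ht => by
    refine D.cover_spec B0 (fun u hu => ?_) (h.c6 t ht.1).2.2
    simp only [gens, List.cons_append, List.mem_cons, List.mem_append] at hu
    rcases hu with rfl | hu | hu | hu
    · exact bT _ ht
    · exact bH u hu
    · cases e : Nat.beq (D.lab D.a1 t) 0 <;> rw [e] at hu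
      · exact bT u (fi ⟨_, h.c7.1⟩ ⟨_, h.c7.2.1⟩ (fun k hk => (h.c4 k hk).2.2.2.2.1) t ht
          (Nat.ne_of_beq_eq_false e) u hu)
      · exact absurd hu List.not_mem_nil
    · cases e : Nat.beq (D.lab D.a2 t) 0 <;> rw [e] at hu
      · exact bT u (fi ⟨_, h.c7.2.2.1⟩ ⟨_, h.c7.2.2.2⟩ (fun k hk => (h.c4 k hk).2.2.2.2.2) t ht
          (Nat.ne_of_beq_eq_false e) u hu)
      · exact absurd hu List.not_mem_nil
  have cg : ∀ k < D.n, C k → ∀ u ∈ D.g k, B u := fun k hk hc u hu =>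
    hc u ((h.c4 k hk).2.2.2.1 u hu).1 ((h.c4 k hk).2.2.2.1 u hu).2
  have key : ∀ j ≤ D.n, ∃ k < D.n, C k ∧ ∀ b < j, C b → D.le b k = true := by
    intro j
    induction j with
    | zero => exact fun _ => ⟨_, (h.c6 0 B0.1).1, up 0 B0, fun b hb => absurd hb (by omega)⟩
    | succ j ih =>
      intro hj
      obtain ⟨k, hk, h1, h2⟩ := ih (by omega)
      by_cases hO : C j
      · obtain ⟨-, -, l, l1, l2, l3⟩ := h.c5 k hk j (by omega)
        refine ⟨D.jo k j, l, D.cover_spec B0 (fun u hu => ?_) l3, fun b hb hb' => ?_⟩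
        · simp only [List.mem_append] at hu
          rcases hu with (hu | hu) | hu
          exacts [bT u (cg k hk h1 u hu), bT u (cg j (by omega) hO u hu), bH u hu]
        · rcases Nat.lt_succ_iff_lt_or_eq.1 hb with hb | rfl
          · exact (ord ⟨b, by omega⟩ ⟨_, l⟩).2 fun s t hst => (ord ⟨k, hk⟩ ⟨_, l⟩).1 l1 s t
              ((ord ⟨b, by omega⟩ ⟨k, hk⟩).1 (h2 b hb hb') s t hst)
          · exact l2
      · refine ⟨k, hk, h1, fun b hb hb' => ?_⟩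
        rcases Nat.lt_succ_iff_lt_or_eq.1 hb with hb | rfl
        · exact h2 b hb hb'
        · exact absurd hb' hO
  obtain ⟨k, hk, h1, h2⟩ := key D.n le_rfl
  refine ⟨⟨k, hk⟩, ?_⟩
  ext s t
  rw [red θ (fun u hu => hθ _ (pT u hu)) (fun u hu => hθ _ (pS u hu)),
    red (ρ ⟨k, hk⟩) (fun u hu => pT u hu _) (fun u hu => pS u hu _)]
  generalize S' s t = y
  constructor
  · intro hy
    obtain ⟨l1, l2, -⟩ := h.c6 y y.2
    exact (ord ⟨_, l1⟩ ⟨k, hk⟩).1 (h2 _ l1 (up y ⟨y.2, hy⟩)) 0 y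
      ((h.c4 _ l1).1.trans l2.symm : D.lab _ 0 = D.lab _ y)
  · intro hy
    exact (h1 y y.2 (((hρ _ _ _).1 hy).symm.trans (h.c4 k hk).1)).2

end GD

end Vale.Agent.P183S
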