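import Vale.Agent.P183S.En0
import Vale.Agent.P183S.En1
import Vale.Agent.P183S.En2
import Vale.Agent.P183S.En3
import Vale.Agent.P183S.DE3
import Vale.Agent.P183S.DG3
import Vale.Agent.P183.Dual
import Vale.Agent.P183L.Main

namespace Vale.Agent.P183S

open Vale.Agent.P183 Vale.Agent.P183L

lemma rep_step' {M : Type} [Lattice M] [OrderBot M] [Finite M] {T : Set M} (p : M)
    (hg : ∀ q ∈ T, ∀ b, q ≤ p ⊔ b → q ≤ ik T p ⊔ b)
    (h : Rep (Fx T) (· ≤ ·)) : Rep (Fx (insert p T)) (· ≤ ·) := by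
  classical
  let _ : OrderBot (Fx T) := { bot := ⟨⊥, bot_le⟩, bot_le := fun _ => (bot_le : (⊥ : M) ≤ _) }
  let β : Fx T → Prop := fun x => p ≤ x.1
  let γ : Prop → Fx T := fun z => if z then ⊥ else ⟨ik T p, ik_fix T p⟩
  have hγ : ∀ (x : Fx T) (y : Prop), (y → ik T p ≤ x.1) → ∀ z, y ≤ z ∨ γ z ≤ x := fun x y h z => by
    by_cases hz : z
    · exact Or.inl fun _ => hz
    by_cases hy : y
    · right; simp only [γ]; rw [if_neg hz]; exact h hy
    · exact Or.inl fun hh => absurd hh hy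
  have sub : ∀ m, ik T m ≤ ik (insert p T) m := fun m =>
    ik_le_iff.2 fun q hq h => le_ik (Set.mem_insert_of_mem p hq) h
  have hord : ∀ a b : Fx (insert p T), a ≤ b ↔ ik T a.1 ≤ ik T b.1 ∧ (p ≤ a.1 → p ≤ b.1) :=
    fun a b => ⟨fun hh => ⟨ik_mono T hh, fun h1 => h1.trans hh⟩, fun hh =>
      a.2.trans (ik_le_iff.2 fun q hq h1 => by
        rcases hq with rfl | hq
        · exact hh.2 h1
        · exact (le_ik hq h1).trans (hh.1.trans (ik_le T _)))⟩
  refine (rep_glue h rep_prop β γ (fun x x' hx hp => le_trans hp hx)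
    fun m z => hγ m (β m) (fun hp => (ik_le T p).trans hp) z).of_bij
    (fun a => ⟨(⟨ik T a.1, ik_fix T _⟩, p ≤ a.1), fun hp => le_trans hp (ik_le T _),
      hγ _ _ fun hp => ik_mono T hp⟩) hord ?_ ?_
  · intro a b hab
    have h1 : ik T a.1 = ik T b.1 := congrArg (fun p => p.1.1.1) hab
    have h2 : (p ≤ a.1) = (p ≤ b.1) := congrArg (fun p => p.1.2) hab
    exact le_antisymm ((hord a b).2 ⟨h1.le, fun hh => h2 ▸ hh⟩)
      ((hord b a).2 ⟨h1.ge, fun hh => h2 ▸ hh⟩)
  · rintro ⟨⟨x, y⟩, h1, h2⟩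
    by_cases hy : y
    · have h3 : ik T p ≤ x.1 := by
        rcases h2 False with h4 | h4
        · exact (h4 hy).elim
        · simp only [γ, if_false] at h4
          exact h4
      refine ⟨⟨p ⊔ x.1, sup_le (le_ik (Set.mem_insert _ _) le_sup_left)
        (x.2.trans ((sub _).trans (ik_mono _ le_sup_right)))⟩,
        Subtype.ext (Prod.ext (Subtype.ext (le_antisymm ?_ ?_)) ?_)⟩
      · exact ik_le_iff.2 fun q hq hh => (hg q hq _ hh).trans (sup_le h3 le_rfl)
      · exact x.2.trans (ik_mono T le_sup_right)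
      · exact propext ⟨fun _ => hy, fun _ => le_sup_left⟩
    · exact ⟨⟨x.1, x.2.trans (sub _)⟩, Subtype.ext (Prod.ext
        (Subtype.ext (le_antisymm (ik_le T _) x.2)) (propext ⟨fun hh => h1 hh, fun hh => absurd hh hy⟩))⟩

lemma rep_base (b : ℕ) (hb : b < 8) : Rep (Fin (bn b)) fun i j => bs b i j = true := by
  interval_cases b
  · exact dA.rep okA
  · exact dB.rep okB
  · exact dC.rep okC
  · exact dD.rep okD
  · exact dE.rep okE
  · exact dF.rep okF
  · exact dG.rep okG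
  · choose F hF using fun k : Fin 7 => ix_surj k k.2
    refine rep_L7.of_bij (α := Fin 7) F (fun a b => by rw [ix_le, hF, hF]; rfl)
      (fun a b h => Fin.ext (by rw [← hF, ← hF, h])) fun a => ⟨⟨ix a, ix_lt a⟩, ?_⟩
    have h := hF ⟨ix a, ix_lt a⟩
    exact leL7_anti _ _ ((ix_le _ _).2 (by rw [h]; exact (chk8 _ (ix_lt a)).2.2.2.2.2))
      ((ix_le _ _).2 (by rw [h]; exact (chk8 _ (ix_lt a)).2.2.2.2.2))

structure Enc (M : Type) [Lattice M] (n : ℕ) (r : ℕ → ℕ → Bool) (e : ℕ → M) : Prop where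
  surj : ∀ m, ∃ i < n, e i = m
  inj : ∀ i < n, ∀ j < n, e i = e j → i = j
  rel : ∀ i < n, ∀ j < n, r i j = true ↔ e i ≤ e j

lemma nor_iff (a b : Bool) : (!a || b) = true ↔ (a = true → b = true) := by
  cases a <;> cases b <;> simp

lemma not_iff' (a : Bool) : (!a) = true ↔ ¬ a = true := by cases a <;> simp

lemma pos_rep {M : Type} [Lattice M] [OrderBot M] [Finite M] {n : ℕ} {r : ℕ → ℕ → Bool}
    {e : ℕ → M} (h : Enc M n r e) {v : ℕ} (hv : posC n r v = true)
    (ih : ∀ (L : Type) [Lattice L] [Finite L] [Nonempty L], Nat.card L < Nat.card M →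
      Rep L (· ≤ ·)) : Rep M (· ≤ ·) := by
  classical
  have all : ∀ {P : M → Prop}, (∀ i < n, P (e i)) → ∀ m, P m := fun hP m => by
    obtain ⟨i, hi, rfl⟩ := h.surj m
    exact hP i hi
  unfold posC at hv
  cases hc : Nat.beq (v / 2 % 4) 0 <;> rw [hc] at hv
  · simp only [cond_false, isoC, Bool.and_eq_true, al_iff, Nat.beq_eq, Nat.blt_eq, beq_iff_eq,
      Bool.not_eq_true', Bool.or_eq_true] at hv
    obtain ⟨⟨⟨h1, h2⟩, h3⟩, h4⟩ := hv
    have hb := rep_base (v / 8 % 8) (Nat.mod_lt _ (by norm_num))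
    choose f hf1 hf2 using h.surj
    refine hb.of_bij (fun m => ⟨(v / 64) >>> (3 * f m) % 8, h1 ▸ (h2 _ (hf1 m)).1⟩)
      (fun a b => ?_) (fun a b hab => ?_) fun k => ?_
    · rw [← (h2 _ (hf1 a)).2 _ (hf1 b), h.rel _ (hf1 a) _ (hf1 b), hf2, hf2]
    · rcases h4 _ (hf1 a) _ (hf1 b) with h5 | h5
      · exact absurd (congrArg Fin.val hab) (Nat.ne_of_beq_eq_false h5)
      · rw [← hf2 a, h5, hf2]
    · by_contra hk
      have h5 := h3 k (h1 ▸ k.2)
      rw [← Bool.not_eq_true, al_iff] at h5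
      refine h5 fun i hi => ?_
      rw [Bool.not_eq_true']
      refine Bool.eq_false_iff.2 fun he' => hk ⟨e i, Fin.ext ?_⟩
      have he := Nat.eq_of_beq_eq_true he'
      show (v / 64) >>> (3 * f (e i)) % 8 = k
      rw [h.inj _ (hf1 _) i hi (hf2 _), he]
  · generalize v / 8 % 8 = p, v / 64 % 8 = s, v / 512 = t at hv
    simp only [cond_true, goodC, Bool.or_assoc] at hv
    simp only [Bool.and_eq_true, Nat.blt_eq, al_iff, nor_iff, not_iff'] at hv
    obtain ⟨⟨⟨⟨⟨⟨hp, hs⟩, g1⟩, g2⟩, g3⟩, g4⟩, g5⟩ := hv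
    let T : Set M := {m | ∃ i < n, t.testBit i = true ∧ e i = m}
    have hT : ∀ m < n, ∀ l < n, (∀ q ∈ T, q ≤ e m → q ≤ e l) →
        ∀ i < n, t.testBit i = true → r i m = true → r i l = true := fun m hm l hl hh i hi h1 h2 =>
      (h.rel i hi l hl).2 (hh _ ⟨i, hi, h1, rfl⟩ ((h.rel i hi m hm).1 h2))
    have s1 : e s ≤ ik T (e p) := by
      obtain ⟨l, hl, el⟩ := h.surj (ik T (e p))
      rw [← el]
      exact (h.rel s hs l hl).1 (g2 l hl (hT p hp l hl fun q hq h1 => el ▸ le_ik hq h1))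
    have hg : ∀ q ∈ T, ∀ b, q ≤ e p ⊔ b → q ≤ ik T (e p) ⊔ b := by
      rintro _ ⟨q, hq, tq, rfl⟩
      refine all fun b hb h1 => ?_
      obtain ⟨l, hl, el⟩ := h.surj (ik T (e p) ⊔ e b)
      rw [← el]
      refine (h.rel q hq l hl).1 (g1 q hq tq b hb (fun l' hl' a1 a2 => (h.rel q hq l' hl').2
        (h1.trans (sup_le ((h.rel p hp l' hl').1 a1) ((h.rel b hb l' hl').1 a2)))) l hl
        ((h.rel s hs l hl).2 (el ▸ le_sup_of_le_left s1)) ((h.rel b hb l hl).2 (el ▸ le_sup_right)))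
    have hall : ∀ m, m ≤ ik (insert (e p) T) m := all fun m hm => by
      obtain ⟨l, hl, el⟩ := h.surj (ik (insert (e p) T) (e m))
      rw [← el]
      exact (h.rel m hm l hl).1 (g3 m hm l hl
        (hT m hm l hl fun q hq h1 => el ▸ le_ik (Set.mem_insert_of_mem _ hq) h1)
        fun h1 => (h.rel p hp l hl).2 (el ▸ le_ik (Set.mem_insert _ _) ((h.rel p hp m hm).1 h1)))
    have np : ¬ e p ≤ ik T (e p) := fun h1 => g5 ((h.rel p hp s hs).2 (h1.trans (ik_le_iff.2 (by
      rintro _ ⟨q, hq, tq, rfl⟩ h2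
      exact (h.rel q hq s hs).1 (g4 q hq tq ((h.rel q hq p hp).2 h2))))))
    let _ : Lattice (Fx T) :=
      { (inferInstance : PartialOrder (Fx T)) with
        sup := fun a b => ⟨a.1 ⊔ b.1, sup_le (a.2.trans (ik_mono T le_sup_left))
          (b.2.trans (ik_mono T le_sup_right))⟩
        le_sup_left := fun a b => (le_sup_left : a.1 ≤ _)
        le_sup_right := fun a b => (le_sup_right : b.1 ≤ _)
        sup_le := fun a b c h1 h2 => (sup_le h1 h2 : a.1 ⊔ b.1 ≤ c.1)
        inf := fun a b => ⟨ik T (a.1 ⊓ b.1), ik_fix T _⟩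
        inf_le_left := fun a b => ((ik_le T _).trans inf_le_left : _ ≤ a.1)
        inf_le_right := fun a b => ((ik_le T _).trans inf_le_right : _ ≤ b.1)
        le_inf := fun a b c h1 h2 => (a.2.trans (ik_mono T (le_inf h1 h2)) : a.1 ≤ _) }
    have : Nonempty (Fx T) := ⟨⟨⊥, bot_le⟩⟩
    have h1 := ih (Fx T) (Finite.card_subtype_lt (p := fun m => m ≤ ik T m) np)
    exact (rep_step' (e p) hg h1).of_bij (fun m => ⟨m, hall m⟩) (fun _ _ => Iff.rfl)
      (fun a b h => congrArg Subtype.val h) fun a => ⟨a.1, rfl⟩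

lemma neg_false {M : Type} [Lattice M] {n : ℕ} {r : ℕ → ℕ → Bool} {e : ℕ → M} (h : Enc M n r e)
    {i j k : ℕ} (hv : negC n r i j k = true) : False := by
  simp only [negC, Bool.and_eq_true, Nat.blt_eq, Bool.or_eq_true, al_iff] at hv
  obtain ⟨⟨hi, hj⟩, ⟨⟨⟨hk, h1⟩, h2⟩, h3⟩ | h1⟩ := hv
  · rw [(h.rel i hi k hk).2 (((h.rel i hi j hj).1 h1).trans ((h.rel j hj k hk).1 h2))] at h3
    exact absurd h3 (by simp)
  · obtain ⟨l, hl, el⟩ := h.surj (e i ⊔ e j)
    have h2 := h1 l hl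
    rw [Bool.not_eq_true', ← Bool.not_eq_true, al_iff] at h2
    refine h2 fun m hm => ?_
    rw [beq_iff_eq, Bool.eq_iff_iff, Bool.and_eq_true, h.rel l hl m hm, h.rel i hi m hm,
      h.rel j hj m hm, el, sup_le_iff]

lemma idx_a : ∀ n < 8, ∀ j < 7, ∀ i < j, 0 < i → j + 1 < n → idx i j < idx 1 (n - 1) ∧
    idx i j < 10 := by
  intro n hn j hj i hi h0 h
  unfold idx
  interval_cases n <;> interval_cases j <;> omega

lemma idx_b (j : ℕ) (hj : j < 7) (i : ℕ) (hi : i < j) (h0 : 0 < i) (j' : ℕ) (hj' : j' < 7) (i' : ℕ)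
    (hi' : i' < j') (h0' : 0 < i') (h : idx i j = idx i' j') : i = i' ∧ j = j' := by
  unfold idx at h
  interval_cases j <;> interval_cases j' <;> omega

lemma idx_spec (n : ℕ) (hn : n < 8) (j : ℕ) (hj : j < 7) (i : ℕ) (hi : i < j) (h0 : 0 < i)
    (h : j + 1 < n) : idx i j < idx 1 (n - 1) ∧
    idx i j < 10 ∧ ∀ j' < 7, ∀ i' < j', 0 < i' → idx i j = idx i' j' → i = i' ∧ j = j' :=
  ⟨(idx_a n hn j hj i hi h0 h).1, (idx_a n hn j hj i hi h0 h).2, idx_b j hj i hi h0⟩

lemma exists_enc (M : Type) [Lattice M] [BoundedOrder M] [Finite M] {n : ℕ} (hn : Nat.card M = n)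
    (h8 : n < 8) : ∃ (code : ℕ) (e : ℕ → M), code < 2 ^ idx 1 (n - 1) ∧ Enc M n (rel n code) e := by
  classical
  have : Fintype (LinearExtension M) := Fintype.ofFinite M
  let φ : Fin n ≃o LinearExtension M := monoEquivOfFin (LinearExtension M)
    (by rw [← Nat.card_eq_fintype_card]; exact hn)
  let e : ℕ → M := fun i => if h : i < n then (φ ⟨i, h⟩ : M) else ⊥
  have he : ∀ i (h : i < n), e i = φ ⟨i, h⟩ := fun i h => dif_pos h
  have surj : ∀ m, ∃ i < n, e i = m := fun m =>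
    ⟨(φ.symm m).1, (φ.symm m).2, by rw [he _ (φ.symm m).2]; exact φ.apply_symm_apply m⟩
  have mono : ∀ i < n, ∀ j < n, e i ≤ e j → i ≤ j := fun i hi j hj hij => by
    have h1 : toLinearExtension (e i) ≤ toLinearExtension (e j) := toLinearExtension.mono hij
    rw [he i hi, he j hj] at h1
    exact φ.le_iff_le.1 h1
  let P : ℕ → Prop := fun b => ∃ i j, 0 < i ∧ i < j ∧ j + 1 < n ∧ idx i j = b ∧ e i ≤ e j
  have tb : ∀ b, (Nat.ofBits (n := 10) fun c => decide (P c)).testBit b = true ↔ P b := fun b => by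
    rw [Nat.testBit_ofBits]
    split_ifs with hb
    · simp
    · refine ⟨fun hh => absurd hh (by simp), fun ⟨i, j, h1, h2, h3, h4, _⟩ => absurd ?_ hb⟩
      rw [← h4]; exact (idx_spec n h8 j (by omega) i h2 h1 h3).2.1
  refine ⟨Nat.ofBits (n := 10) fun c => decide (P c), e, Nat.lt_pow_two_of_testBit _ fun b hb => ?_,
    surj, fun i hi j hj hij => le_antisymm (mono i hi j hj hij.le) (mono j hj i hi hij.ge),
    fun i hi j hj => ?_⟩
  · rw [← Bool.not_eq_true, tb]
    rintro ⟨i, j, h1, h2, h3, h4, -⟩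
    have := (idx_spec n h8 j (by omega) i h2 h1 h3).1
    omega
  · simp only [rel, Bool.or_eq_true, Bool.and_eq_true, Nat.beq_eq, Nat.blt_eq, tb]
    have b0 : ∀ m, e 0 ≤ m := fun m => by
      obtain ⟨k, hk, ek⟩ := surj ⊥
      have := mono k hk 0 (by omega) (ek ▸ bot_le)
      rw [← Nat.le_zero.1 this, ek]; exact bot_le
    have b1 : j + 1 = n → ∀ m, m ≤ e j := fun hj' m => by
      obtain ⟨k, hk, ek⟩ := surj ⊤
      have := mono j hj k hk (ek ▸ le_top)
      rw [show j = k by omega, ek]; exact le_top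
    by_cases c1 : i = j
    · simp [c1]
    by_cases c2 : i = 0
    · simp [c2, b0]
    by_cases c3 : j + 1 = n
    · simp [c3, b1 c3]
    simp only [c1, c2, c3, false_or]
    constructor
    · rintro ⟨h0, i', j', h1, h2, h3, h4, h5⟩
      obtain ⟨rfl, rfl⟩ := (idx_spec n h8 j' (by omega) i' h2 h1 h3).2.2 j (by omega) i h0
        (by omega) h4
      exact h5
    · intro hij
      have := mono i hi j hj hij
      exact ⟨by omega, i, j, by omega, by omega, by omega, rfl, hij⟩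

lemma chk_all {n code : ℕ} (h2 : 2 ≤ n) (h8 : n < 8) (hc : code < 2 ^ idx 1 (n - 1)) :
    chkC n code = true := by
  by_cases h7 : n < 7
  · refine en_small n h7 code (hc.trans_le ?_) h2 hc
    interval_cases n <;> decide
  obtain rfl : n = 7 := by omega
  have hc' : code < 1024 := hc
  rw [← Nat.div_add_mod code 64]
  have hm : code % 64 < 64 := Nat.mod_lt _ (by norm_num)
  by_cases c1 : code / 64 < 2
  · exact all2_spec en0 (Nat.zero_le _) (by omega) hm
  by_cases c2 : code / 64 < 5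
  · exact all2_spec en1 (by omega) (by omega) hm
  by_cases c3 : code / 64 < 9
  · exact all2_spec en2 (by omega) (by omega) hm
  · exact all2_spec en3 (by omega) (by omega) hm

theorem rep_seven (n : ℕ) : ∀ (M : Type) [Lattice M] [Finite M] [Nonempty M], Nat.card M = n →
    n ≤ 7 → Rep M (· ≤ ·) := by
  induction n using Nat.strong_induction_on with
  | _ n ih =>
  intro M _ _ _ hn h7
  have := Fintype.ofFinite M
  let _ : BoundedOrder M := Fintype.toBoundedOrder M
  by_cases h2 : n < 2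
  · have : Subsingleton M := Finite.card_le_one_iff_subsingleton.1 (by omega)
    exact Cl.rep (X := Unit) (ρ := fun _ => ⊤) (a0 := ⊥) ⟨fun a b =>
      ⟨fun _ _ _ h => h, fun _ => (Subsingleton.elim a b).le⟩, fun a b _ _ => Subsingleton.elim a b,
      fun _ => bot_le, fun θ _ _ => ⟨⊥, Setoid.ext fun s t => ⟨fun _ => trivial, fun _ => θ.refl _⟩⟩⟩
  obtain ⟨code, e, hc, he⟩ := exists_enc M hn (by omega)
  have hk := chk_all (by omega) (by omega) hc
  simp only [chkC, frc_eq] at hk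
  generalize (tE >>> (27 * (1024 * n + code))) % 134217728 = v at hk
  have ih' : ∀ (L : Type) [Lattice L] [Finite L] [Nonempty L], Nat.card L < Nat.card M →
      Rep L (· ≤ ·) := fun L _ _ _ hL => ih _ (hn ▸ hL) L rfl (by omega)
  cases c1 : Nat.blt (v % 8) 4 <;> rw [c1] at hk
  · exact (neg_false he hk).elim
  cases c2 : Nat.beq (v % 2) 0 <;> rw [c2] at hk
  · have h1 : Rep Mᵒᵈ (· ≤ ·) := pos_rep (M := Mᵒᵈ) (e := e)
      ⟨he.surj, he.inj, fun i hi j hj => he.rel j hj i hi⟩ hk ih'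
    have h3 := rep_dual h1
    exact h3
  · exact pos_rep he hk ih'

end Vale.Agent.P183S
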